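import Vale.Agent.P243.Defs
import Vale.Agent.P243.Final

open scoped ENNReal
open Vale.Agent.P243

/-- Bang's half-area inequality and its directionwise relative form both fail for the regular
tetrahedron; `c₃ ≤ 0.4998` and `r₃ ≤ 0.434`. -/
theorem Vale.Agent.Results.P243.BangCylinder.result :
    IsConvexBody tet ∧ minArea tet = ENNReal.ofReal (2 * √2) ∧
    (∃ (m : ℕ) (C : Fin m → Cylinder), Covers C tet ∧
      totalArea C ≤ 2499 / 5000 * minArea tet) ∧
    (∃ (m : ℕ) (C : Fin m → Cylinder), Covers C tet ∧ relArea C tet ≤ 217 / 500) ∧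
    (¬ ∀ K : Set E3, IsConvexBody K → ∀ (m : ℕ) (C : Fin m → Cylinder), Covers C K →
      1 / 2 * minArea K ≤ totalArea C) ∧
    (¬ ∀ K : Set E3, IsConvexBody K → ∀ (m : ℕ) (C : Fin m → Cylinder), Covers C K →
      1 / 2 ≤ relArea C K) ∧
    cThree ≤ 2499 / 5000 ∧ rThree ≤ 217 / 500 :=
  Vale.Agent.P243.main
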